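import Mathlib.Analysis.Normed.Module.FiniteDimension
import Mathlib.Analysis.InnerProductSpace.Basic
import Mathlib.Data.Set.Card
import Mathlib.Tactic

/-!
# Fine open covers of small order of a finite dimensional normed space

The open stars of the vertices of the Freudenthal triangulation.
-/

set_option autoImplicit false

open scoped Topology
open Set Metric Filter

noncomputable section

namespace Vale.Agent.P210.R2.H946

/-- homogeneous coordinates: the coordinate `none` is zero -/
def hom {k : ℕ} (y : Fin k → ℝ) (i : Option (Fin k)) : ℝ := i.elim 0 y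

theorem hom_none {k : ℕ} (y : Fin k → ℝ) : hom y none = 0 := rfl

theorem hom_some {k : ℕ} (y : Fin k → ℝ) (a : Fin k) : hom y (some a) = y a := rfl

/-- the star of the lattice point `v` -/
def star {k : ℕ} (v : Fin k → ℤ) : Set (Fin k → ℝ) :=
  {y | ∀ i j, hom (fun a => y a - v a) i - hom (fun a => y a - v a) j < 1}

theorem isOpen_star {k : ℕ} (v : Fin k → ℤ) : IsOpen (star v) := by
  have h : star v = ⋂ i, ⋂ j, {y : Fin k → ℝ | hom (fun a => y a - v a) i -
      hom (fun a => y a - v a) j < 1} := by
    ext y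
    simp [star]
  rw [h]
  refine isOpen_iInter_of_finite fun i => isOpen_iInter_of_finite fun j => ?_
  refine isOpen_lt ?_ continuous_const
  refine Continuous.sub ?_ ?_
  · cases i with
    | none => exact continuous_const
    | some a => exact (continuous_apply a).sub continuous_const
  · cases j with
    | none => exact continuous_const
    | some a => exact (continuous_apply a).sub continuous_const

theorem mem_star_floor {k : ℕ} (y : Fin k → ℝ) : y ∈ star (fun a => ⌊y a⌋) := by
  intro i j
  have h : ∀ l : Option (Fin k), 0 ≤ hom (fun a => y a - ((⌊y a⌋ : ℤ) : ℝ)) l ∧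
      hom (fun a => y a - ((⌊y a⌋ : ℤ) : ℝ)) l < 1 := by
    intro l
    cases l with
    | none => exact ⟨le_rfl, by simp [hom]⟩
    | some a =>
      have h1 := Int.floor_le (y a)
      have h2 := Int.lt_floor_add_one (y a)
      simp only [hom, Option.elim_some]
      constructor <;> linarith
  have h1 := h i
  have h2 := h j
  linarith [h1.2, h2.1]

/-- the vertex determined by the position of the least coordinate -/
def vert {k : ℕ} (y : Fin k → ℝ) (i : Option (Fin k)) (j : Fin k) : ℤ :=
  ⌊y j - hom y i⌋ - ⌊0 - hom y i⌋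

theorem exists_vert {k : ℕ} (y : Fin k → ℝ) (v : Fin k → ℤ) (h : y ∈ star v) :
    ∃ i, vert y i = v := by
  obtain ⟨i, hi⟩ := Finite.exists_min (hom fun a => y a - (v a : ℝ))
  refine ⟨i, ?_⟩
  set c : ℤ := i.elim 0 v with hc
  have hz : hom (fun a => y a - (v a : ℝ)) i = hom y i - c := by
    rw [hc]
    cases i with
    | none => simp [hom]
    | some a => simp [hom]
  have h0 : ⌊0 - hom y i⌋ = - c := by
    rw [Int.floor_eq_iff]
    have h1 := hi none
    have h2 := h none i
    rw [hz] at h1 h2
    rw [hom_none] at h1 h2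
    push_cast
    constructor <;> linarith
  funext j
  have hj : ⌊y j - hom y i⌋ = v j - c := by
    rw [Int.floor_eq_iff]
    have h1 := hi (some j)
    have h2 := h (some j) i
    rw [hz] at h1 h2
    rw [hom_some] at h1 h2
    push_cast
    constructor <;> linarith
  rw [vert, hj, h0]
  ring

theorem card_star {k : ℕ} (y : Fin k → ℝ) :
    {v | y ∈ star v}.Finite ∧ {v | y ∈ star v}.ncard ≤ k + 1 := by
  have hsub : {v | y ∈ star v} ⊆ vert y '' (univ : Set (Option (Fin k))) := by
    intro v hv
    obtain ⟨i, hi⟩ := exists_vert y v hv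
    exact ⟨i, mem_univ i, hi⟩
  have hfin : (vert y '' (univ : Set (Option (Fin k)))).Finite := (finite_univ).image _
  refine ⟨hfin.subset hsub, (ncard_le_ncard hsub hfin).trans
    ((ncard_image_le finite_univ).trans ?_)⟩
  rw [ncard_univ, Nat.card_eq_fintype_card, Fintype.card_option, Fintype.card_fin]

theorem star_small {k : ℕ} {v : Fin k → ℤ} {x y : Fin k → ℝ} (hx : x ∈ star v)
    (hy : y ∈ star v) : dist x y ≤ 2 := by
  rw [dist_pi_le_iff (by norm_num)]
  intro a
  have h1 := hx (some a) none
  have h2 := hx none (some a)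
  have h3 := hy (some a) none
  have h4 := hy none (some a)
  simp only [hom, Option.elim_some, Option.elim_none] at h1 h2 h3 h4
  rw [Real.dist_eq, abs_le]
  constructor <;> linarith

/-- D1: fine open covers of order at most `k + 1` of a `k`-dimensional normed space. -/
theorem fine_cover (V : Type) [NormedAddCommGroup V] [NormedSpace ℝ V] [FiniteDimensional ℝ V]
    {δ : ℝ} (hδ : 0 < δ) :
    ∃ (B : Type) (O : B → Set V), (∀ b, IsOpen (O b)) ∧ (⋃ b, O b) = univ ∧
      (∀ b, ∀ x ∈ O b, ∀ y ∈ O b, dist x y ≤ δ) ∧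
      ∀ x, {b | x ∈ O b}.Finite ∧ {b | x ∈ O b}.ncard ≤ Module.finrank ℝ V + 1 := by
  let e : V ≃L[ℝ] (Fin (Module.finrank ℝ V) → ℝ) := (Module.finBasis ℝ V).equivFunL
  obtain ⟨K, hK0, hK⟩ : ∃ K : ℝ, 0 < K ∧ ∀ w, ‖e.symm w‖ ≤ K * ‖w‖ :=
    (e.symm : (Fin (Module.finrank ℝ V) → ℝ) →L[ℝ] V).bound
  set s : ℝ := δ / (2 * K) with hs
  have hs0 : 0 < s := by positivity
  let g : V → (Fin (Module.finrank ℝ V) → ℝ) := fun x => s⁻¹ • e x
  have hg : Continuous g := e.continuous.const_smul s⁻¹
  refine ⟨Fin (Module.finrank ℝ V) → ℤ, fun v => g ⁻¹' star v, fun v => (isOpen_star v).preimage hg,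
    ?_, ?_, fun x => card_star (g x)⟩
  · refine eq_univ_of_forall fun x => mem_iUnion.2 ⟨fun a => ⌊g x a⌋, ?_⟩
    exact mem_star_floor (g x)
  · intro v x hx y hy
    have h1 : dist (g x) (g y) ≤ 2 := star_small hx hy
    have h2 : x - y = s • e.symm (g x - g y) := by
      simp only [g]
      rw [← smul_sub, map_smul, smul_smul, mul_inv_cancel₀ hs0.ne', one_smul, ← map_sub,
        e.symm_apply_apply]
    rw [dist_eq_norm, h2, norm_smul, Real.norm_of_nonneg hs0.le]
    rw [dist_eq_norm] at h1
    calc s * ‖e.symm (g x - g y)‖ ≤ s * (K * 2) := by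
          refine mul_le_mul_of_nonneg_left ((hK _).trans ?_) hs0.le
          exact mul_le_mul_of_nonneg_left h1 hK0.le
      _ = δ := by rw [hs]; field_simp

end Vale.Agent.P210.R2.H946
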