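import Vale.Agent.P210.R2.H946.Dim1
import Mathlib.Topology.OpenPartialHomeomorph.Basic
import Mathlib.Topology.MetricSpace.Pseudo.Basic

/-!
# Refinement of an open cover on a compact set in a chart
-/

set_option autoImplicit false

open scoped Topology
open Set Metric Filter

noncomputable section

namespace Vale.Agent.P210.R2.H946

/-- D2: refinement on a compact set in a chart. -/
theorem compact_refine {V : Type} [NormedAddCommGroup V] [NormedSpace ℝ V]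
    [FiniteDimensional ℝ V] {X : Type} [TopologicalSpace X] (e : OpenPartialHomeomorph X V)
    {C : Set X} (hC : IsCompact C) (hCe : C ⊆ e.source) (A : Type) (U : A → Set X)
    (hU : ∀ a, IsOpen (U a)) (hCU : C ⊆ ⋃ a, U a) :
    ∃ W : A → Set X, (∀ a, IsOpen (W a)) ∧ (∀ a, W a ⊆ U a) ∧ C ⊆ (⋃ a, W a) ∧
      ∀ x ∈ C, {a | x ∈ W a}.Finite ∧ {a | x ∈ W a}.ncard ≤ Module.finrank ℝ V + 1 := by
  rcases isEmpty_or_nonempty A with hA | hA
  · refine ⟨U, hU, fun a => le_rfl, hCU, fun x hx => ?_⟩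
    obtain ⟨a, _⟩ := mem_iUnion.1 (hCU hx)
    exact (hA.false a).elim
  have hKc : IsCompact (e '' C) := hC.image_of_continuousOn (e.continuousOn.mono hCe)
  have hO' : ∀ a, IsOpen (e.target ∩ e.symm ⁻¹' (U a)) := fun a =>
    e.isOpen_inter_preimage_symm (hU a)
  have hcov : e '' C ⊆ ⋃ a, (e.target ∩ e.symm ⁻¹' (U a)) := by
    rintro _ ⟨x, hx, rfl⟩
    obtain ⟨a, ha⟩ := mem_iUnion.1 (hCU hx)
    refine mem_iUnion.2 ⟨a, e.map_source (hCe hx), ?_⟩
    rw [mem_preimage, e.left_inv (hCe hx)]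
    exact ha
  obtain ⟨δ, hδ, hleb⟩ := lebesgue_number_lemma_of_metric hKc hO' hcov
  obtain ⟨B, O, hOo, hOc, hOd, hOn⟩ := fine_cover V (half_pos hδ)
  have hex : ∀ b, (O b ∩ e '' C).Nonempty → ∃ a, O b ⊆ e.target ∩ e.symm ⁻¹' (U a) := by
    rintro b ⟨y, hyO, hyK⟩
    obtain ⟨a, ha⟩ := hleb y hyK
    refine ⟨a, fun z hz => ha ?_⟩
    have h1 := hOd b z hz y hyO
    rw [mem_ball]
    linarith
  choose! φ hφ using hex
  let P : A → Set V := fun a => ⋃ b, ⋃ (_ : (O b ∩ e '' C).Nonempty ∧ φ b = a), O b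
  have hP : ∀ a z, z ∈ P a ↔ ∃ b, (O b ∩ e '' C).Nonempty ∧ φ b = a ∧ z ∈ O b := by
    intro a z
    simp only [P, mem_iUnion, exists_prop, and_assoc]
  refine ⟨fun a => e.source ∩ e ⁻¹' (P a), fun a => ?_, ?_, ?_, ?_⟩
  · exact e.isOpen_inter_preimage (isOpen_iUnion fun b => isOpen_iUnion fun _ => hOo b)
  · rintro a x ⟨hxs, hxP⟩
    obtain ⟨b, hb, rfl, hxb⟩ := (hP a _).1 hxP
    have h1 := (hφ b hb hxb).2
    rwa [mem_preimage, e.left_inv hxs] at h1
  · intro x hx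
    have h1 : e x ∈ ⋃ b, O b := by
      rw [hOc]
      exact mem_univ _
    obtain ⟨b, hb⟩ := mem_iUnion.1 h1
    refine mem_iUnion.2 ⟨φ b, hCe hx, ?_⟩
    exact (hP _ _).2 ⟨b, ⟨e x, hb, mem_image_of_mem e hx⟩, rfl, hb⟩
  · intro x _
    have hsub : {a | x ∈ e.source ∩ e ⁻¹' (P a)} ⊆ φ '' {b | e x ∈ O b} := by
      rintro a ⟨_, hxP⟩
      obtain ⟨b, _, hb, hxb⟩ := (hP a _).1 hxP
      exact ⟨b, hxb, hb⟩
    have hfin := (hOn (e x)).1
    exact ⟨(hfin.image φ).subset hsub, (ncard_le_ncard hsub (hfin.image φ)).trans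
      ((ncard_image_le hfin).trans (hOn (e x)).2)⟩

end Vale.Agent.P210.R2.H946
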